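import Vale.Agent.P046.Final

open Filter Topology MeasureTheory

namespace Vale.Agent.Results.P046.Constant

open Vale.Agent.P046

theorem result :
    (∀ n : ℕ, ∀ G ∈ (run n (n ^ 2)).support, G.CliqueFree 3) ∧
    (∀ ε : ℝ, 0 < ε → Tendsto (fun n : ℕ => (finalLaw n).toMeasure
        {k : ℕ | ε ≤ |(k : ℝ) / (n : ℝ) ^ (3 / 2 : ℝ) - 1 / (2 * Real.sqrt 2)|}) atTop (𝓝 0)) ∧
    (∀ n : ℕ, Integrable (fun k : ℕ => (k : ℝ)) (finalLaw n).toMeasure) ∧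
    Tendsto (fun n : ℕ => (∫ k : ℕ, (k : ℝ) ∂(finalLaw n).toMeasure) / (n : ℝ) ^ (3 / 2 : ℝ))
      atTop (𝓝 (1 / (2 * Real.sqrt 2))) :=
  ⟨run_cliqueFree, tendsto_prob, fun n => finalLaw_integrable n _, tendsto_mean⟩

end Vale.Agent.Results.P046.Constant
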